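import Vale.Agent.P161c.CritMain

/-!
P161: the free zero-field ferromagnetic Ising measure on the `d`-regular tree, `d ≥ 3`, is a factor
of IID whenever `tanh β ≤ (d - 1)^(-1/2)`, the critical value included.
-/

namespace Vale.Agent.Results.P161.FreeIsingClosed

open MeasureTheory SimpleGraph Vale.Agent.H13.P161

/-- For every `d ≥ 3`, every `d`-regular tree `G` and every `β ≥ 0` with
`tanh β ≤ 1 / √(d - 1)`: the free zero-field Ising measure on `G` exists and is unique, and it is a
factor of IID. -/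
theorem result {V : Type*} (G : SimpleGraph V) [LocallyFinite G] (hG : G.IsTree)
    (d : ℕ) (hd : 3 ≤ d) (hreg : G.IsRegularOfDegree d) (β : ℝ) (hβ : 0 ≤ β)
    (hθ : Real.tanh β ≤ 1 / √((d : ℝ) - 1)) :
    (∃! μ : Measure (V → ℤˣ), IsFreeIsing G β μ) ∧
      ∀ μ : Measure (V → ℤˣ), IsFreeIsing G β μ → IsFactorOfIID G μ :=
  ⟨existsUnique_isFreeIsing hG β, fun _ hμ =>
    Vale.Agent.P161c.isFactorOfIID_of_le hG hd hreg hβ hθ hμ⟩

end Vale.Agent.Results.P161.FreeIsingClosed
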